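import Mathlib
import Vale.Agent.Lib.P369.Defs
import Vale.Agent.Lib.P369.MultiDefs
import Vale.Agent.Lib.P369.Analysis
import Vale.Agent.Lib.P369.SingleMode
import Vale.Agent.Lib.P369.Tensor

/-!
# P369: the entropy photon-number inequality for `n`-mode Fock-diagonal inputs with at most one
photon in each mode
-/

namespace Vale.Agent.Results.P369.MultiModeZeroOne

open Vale.Agent.Lib.P369

/-- Any number `n ≥ 1` of modes.  Let the inputs be the Fock-diagonal states `∑ x, α x |x><x|` and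
`∑ y, β y |y><y|`, where `x`, `y` range over `{0, 1} ^ n` and `α`, `β` are arbitrary probability
distributions (correlations between the modes are allowed).  The output is Fock-diagonal with
photon-number distribution `outLaw η α β` on `{0, 1, 2} ^ n`.  If `NA`, `NB`, `NC` are the entropy
photon numbers of the inputs and of the output, then `η * NA + (1 - η) * NB ≤ NC`. -/
theorem result (n : ℕ) (hn : 1 ≤ n) (η : ℝ) (h0 : 0 ≤ η) (h1 : η ≤ 1)
    (α β : (Fin n → Fin 2) → ℝ)
    (hα : ∀ x, 0 ≤ α x) (hα1 : ∑ x, α x = 1) (hβ : ∀ y, 0 ≤ β y) (hβ1 : ∑ y, β y = 1)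
    (NA NB NC : ℝ) (hNA : 0 ≤ NA) (hNB : 0 ≤ NB) (hNC : 0 ≤ NC)
    (hA : g NA = entropy α / n) (hB : g NB = entropy β / n)
    (hC : g NC = entropy (outLaw η α β : (Fin n → Fin 3) → ℝ) / n) :
    η * NA + (1 - η) * NB ≤ NC := by
  obtain ⟨m, rfl⟩ : ∃ m, n = m + 1 := ⟨n - 1, by omega⟩
  set T : Fin 2 → Fin 2 → Fin 3 → ℝ := fun x y z => bsAmp η (x : ℕ) (y : ℕ) (z : ℕ) ^ 2 with hT
  have hTprob : ∀ x y, IsProb (T x y) := by
    intro x y
    refine ⟨fun z => sq_nonneg _, ?_⟩
    simp only [hT, Fin.sum_univ_three]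
    fin_cases x <;> fin_cases y <;>
      simp only [Fin.val_zero, Fin.val_one, Fin.val_two, amp_000, amp_001,
        amp_002, amp_100 h1, amp_101 h0, amp_102, amp_010 h0, amp_011 h1, amp_012, amp_110 h0 h1,
        amp_111 h0 h1, amp_112 h0 h1] <;> ring
  have hgood1 : Good η 1 T := by
    intro α β hα hβ a b ha hb hA hB
    rw [one_mul] at hA hB ⊢
    exact single_letter h0 h1 α β hα.1 hα.2 hβ.1 hβ.2 ha hb hA hB
  have hgood := Good.pow h0 h1 hTprob hgood1 m
  have hpos : (0 : ℝ) < ((m + 1 : ℕ) : ℝ) := by positivity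
  have hcast : ((m + 1 : ℕ) : ℝ) = (m : ℝ) + 1 := by push_cast; ring
  have key := hgood α β ⟨hα, hα1⟩ ⟨hβ, hβ1⟩ NA NB hNA hNB
    (by rw [hA, ← hcast]; field_simp; exact le_rfl) (by rw [hB, ← hcast]; field_simp; exact le_rfl)
  have hout : push (kpow T (m + 1)) α β = (outLaw η α β : (Fin (m + 1) → Fin 3) → ℝ) := rfl
  rw [hout, ← hcast] at key
  have key2 : g (η * NA + (1 - η) * NB) ≤ g NC := by
    rw [hC, le_div_iff₀ hpos]
    linarith
  have hnn : 0 ≤ η * NA + (1 - η) * NB := by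
    have := mul_nonneg h0 hNA
    have := mul_nonneg (by linarith : 0 ≤ 1 - η) hNB
    linarith
  exact (g_le_iff hnn hNC).mp key2

end Vale.Agent.Results.P369.MultiModeZeroOne
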