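import Mathlib
import Vale.Agent.Lib.P369.Defs
import Vale.Agent.Lib.P369.Analysis
import Vale.Agent.Lib.P369.SingleMode

/-!
# P369: the entropy photon-number inequality for one-mode inputs that are mixtures of the vacuum
and the one-photon Fock state
-/

namespace Vale.Agent.Results.P369.OneModeZeroOne

open Vale.Agent.Lib.P369

/-- One mode.  Let the inputs be `α 0 |0><0| + α 1 |1><1|` and `β 0 |0><0| + β 1 |1><1|`.  The output
of the beam splitter of transmissivity `η` is diagonal in the Fock basis with photon-number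
distribution `z ↦ ∑ x y, α x * β y * |<z, x + y - z| U_η |x, y>| ^ 2` on `{0, 1, 2}`.  If `NA`, `NB`, `NC`
are the entropy photon numbers of the two inputs and of the output, then
`η * NA + (1 - η) * NB ≤ NC`. -/
theorem result (η : ℝ) (h0 : 0 ≤ η) (h1 : η ≤ 1) (α β : Fin 2 → ℝ)
    (hα : ∀ x, 0 ≤ α x) (hα1 : ∑ x, α x = 1) (hβ : ∀ x, 0 ≤ β x) (hβ1 : ∑ x, β x = 1)
    (NA NB NC : ℝ) (hNA : 0 ≤ NA) (hNB : 0 ≤ NB) (hNC : 0 ≤ NC)
    (hA : g NA = entropy α) (hB : g NB = entropy β)
    (hC : g NC = entropy (fun z : Fin 3 =>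
      ∑ x, ∑ y, α x * β y * bsAmp η (x : ℕ) (y : ℕ) (z : ℕ) ^ 2)) :
    η * NA + (1 - η) * NB ≤ NC := by
  have h := single_letter h0 h1 α β hα hα1 hβ hβ1 hNA hNB hA.le hB.le
  rw [← hC] at h
  have hpos : 0 ≤ η * NA + (1 - η) * NB := by
    have := mul_nonneg h0 hNA
    have := mul_nonneg (by linarith : 0 ≤ 1 - η) hNB
    linarith
  exact (g_le_iff hpos hNC).mp h

end Vale.Agent.Results.P369.OneModeZeroOne
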